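import Vale.Agent.P079.Weak

namespace Vale.Agent.P079

open Filter Topology Set

variable {X : Type*} [NormedAddCommGroup X] [NormedSpace ℝ X] {H : Type*}

/-- An abstract system of states with a clock `a`, a position `M` and far extensions `R`. -/
structure IsSys (a : H → ℝ) (M : H → X) (R : H → ℕ → H → Prop) (D : ℝ) (K : Set X)
    (Y : Submodule ℝ X) : Prop where
  K_closed : IsClosed K
  K_convex : Convex ℝ K
  Y_closed : IsClosed (Y : Set X)
  Y_sep : TopologicalSpace.IsSeparable (Y : Set X)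
  M_K : ∀ h, M h ∈ K
  M_Y : ∀ h, M h ∈ Y
  start : ∃ h, a h < D
  R1 : ∀ h n h', R h n h' → ‖M h' - M h‖ ≤ a h' - a h
  R2 : ∀ h m n h', m ≤ n → R h n h' → R h m h'
  R3 : ∀ h n h' m h'', R h n h' → R h' m h'' → R h n h''
  R4 : ∀ h, ∀ y ∈ K, ∀ ε > 0, ∃ n, ∀ h', R h n h' → a h' - a h - ε ≤ ‖M h' - y‖
  R5 : ∀ h n l, 0 < l → a h + l < D → ∃ h', R h n h' ∧ a h' = a h + l

/-- Goodness of a set of functionals. -/
def Good (a : H → ℝ) (M : H → X) (R : H → ℕ → H → Prop) (D : ℝ) (C : Set X) (c : ℝ)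
    (Ξ : Set (WeakDual ℝ X)) : Prop :=
  ∀ h l, 0 < l → a h + l < D → ∀ (n : ℕ) (F : Finset (StrongDual ℝ X)) (ε : ℝ), 0 < ε →
    ∃ h', R h n h' ∧ a h' = a h + l ∧ ∃ b ∈ C,
      (∀ ξ ∈ F, |ξ (M h' - M h - l • b)| ≤ ε * l) ∧
      ∀ ζ ∈ Ξ, ζ (M h' - M h - l • b) ≤ (c + ε) * l

variable {a : H → ℝ} {M : H → X} {R : H → ℕ → H → Prop} {D : ℝ} {K : Set X}
  {Y : Submodule ℝ X}

theorem Good.mono_c {C : Set X} {c c' : ℝ} (h : Good a M R D C c ∅) : Good a M R D C c' ∅ := by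
  intro h0 l hl hD n F ε hε
  obtain ⟨h', h1, h2, b, hb, h3, -⟩ := h h0 l hl hD n F ε hε
  exact ⟨h', h1, h2, b, hb, h3, fun ζ hζ => hζ.elim⟩

theorem Good.nonempty (S : IsSys a M R D K Y) {C : Set X} {c : ℝ} {Ξ : Set (WeakDual ℝ X)}
    (h : Good a M R D C c Ξ) : C.Nonempty := by
  obtain ⟨h0, hh0⟩ := S.start
  obtain ⟨_, -, -, b, hb, -⟩ := h h0 ((D - a h0) / 2) (by linarith) (by linarith) 0 ∅ 1 one_pos
  exact ⟨b, hb⟩

/-- The dual unit ball in the weak-star topology. -/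
def dball (X : Type*) [NormedAddCommGroup X] [NormedSpace ℝ X] : Set (WeakDual ℝ X) :=
  WeakDual.toStrongDual ⁻¹' Metric.closedBall (0 : StrongDual ℝ X) 1

theorem dball_compact : IsCompact (dball X) := WeakDual.isCompact_closedBall 0 1

theorem dball_le {ζ : WeakDual ℝ X} (h : ζ ∈ dball X) (x : X) : ζ x ≤ ‖x‖ := by
  have h1 : ‖WeakDual.toStrongDual ζ‖ ≤ 1 := (mem_dual_ball _ _).1 h
  have h2 := (le_abs_self _).trans ((WeakDual.toStrongDual ζ).le_opNorm x)
  have h3 : (WeakDual.toStrongDual ζ) x = ζ x := rfl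
  nlinarith [norm_nonneg x]

theorem good_extend (S : IsSys a M R D K Y) {C : Set X} (hCv : Convex ℝ C)
    (hCY : ∀ b ∈ C, b ∈ Y) (hC1 : ∀ b ∈ C, ‖b‖ ≤ 1) (hCne : C.Nonempty) {c : ℝ} (hc : 0 < c)
    {O : Set (WeakDual ℝ X)}
    (hO : ∀ Ξ, IsCompact Ξ → Ξ ⊆ O → Ξ ⊆ dball X → Good a M R D C c Ξ)
    {Ξ : Set (WeakDual ℝ X)} (hΞ : IsCompact Ξ) (hΞb : Ξ ⊆ dball X)
    (F0 : Finset (StrongDual ℝ X)) {γ : ℝ} (hγ : 0 < γ)
    (hsm : ∀ N ∈ Y, ‖N‖ ≤ 2 → (∀ ξ ∈ F0, |ξ N| ≤ γ) → ∀ ζ ∈ Ξ, ζ ∉ O → ζ N ≤ c) :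
    Good a M R D C c Ξ := by
  classical
  intro h l hl hD n F ε hε
  obtain ⟨p, hp⟩ := exists_nat_gt (4 / ε)
  have hp0 : (0 : ℝ) < p := lt_trans (by positivity) hp
  set l' : ℝ := l / p with hl'
  have hl'0 : 0 < l' := by positivity
  set e : ℝ := min (ε / 2) γ with he
  have he0 : 0 < e := lt_min (by positivity) hγ
  have he1 : e ≤ ε / 2 := min_le_left _ _
  have he2 : e ≤ γ := min_le_right _ _
  have main : ∀ i : ℕ, i ≤ p → ∃ h', (h' = h ∨ R h n h') ∧ a h' = a h + i * l' ∧ ∃ b ∈ C,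
      (∀ ξ ∈ F, |ξ (M h' - M h - (i * l') • b)| ≤ e * (i * l')) ∧
      ∃ Ξ' : Set (WeakDual ℝ X), IsCompact Ξ' ∧ Ξ' ⊆ O ∧ Ξ' ⊆ dball X ∧
        (∀ ζ ∈ Ξ, ζ ∉ Ξ' → ζ (M h' - M h - (i * l') • b) ≤ (c + e) * (i * l')) ∧
        (∀ ζ ∈ Ξ, ζ (M h' - M h - (i * l') • b) ≤ (c + e) * (i * l') + 2 * l') := by
    intro i
    induction i with
    | zero =>
      intro _
      obtain ⟨b, hb⟩ := hCne
      refine ⟨h, Or.inl rfl, by simp, b, hb, by simp, ∅, isCompact_empty, empty_subset _,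
        empty_subset _, by simp, fun ζ _ => ?_⟩
      simp only [CharP.cast_eq_zero, zero_mul, sub_self, zero_smul, map_zero, mul_zero, zero_add]
      positivity
    | succ i ih =>
      intro hi
      obtain ⟨h1, hR1, ha1, b1, hb1, hF1, Ξ1, hc1, hO1, hd1, hA1, hB1⟩ := ih (by omega)
      have hiP : ((i : ℝ) + 1) ≤ p := by exact_mod_cast hi
      have hlt : a h1 + l' < D := by
        have : ((i : ℝ) + 1) * l' ≤ p * l' := mul_le_mul_of_nonneg_right hiP hl'0.le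
        have h2 : (p : ℝ) * l' = l := by rw [hl']; field_simp
        linarith
      obtain ⟨h2, hR2, ha2, b2, hb2, hF2, hG2⟩ :=
        hO Ξ1 hc1 hO1 hd1 h1 l' hl'0 hlt n (F ∪ F0) e he0
      set N2 := M h2 - M h1 - l' • b2 with hN2
      have hN2n : ‖N2‖ ≤ 2 * l' := by
        have e1 := S.R1 _ _ _ hR2
        have e2 : ‖l' • b2‖ ≤ l' := by
          rw [norm_smul, Real.norm_eq_abs, abs_of_pos hl'0]
          nlinarith [hC1 b2 hb2]
        have e3 := norm_sub_le (M h2 - M h1) (l' • b2)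
        linarith
      have hN2Y : N2 ∈ Y :=
        Y.sub_mem (Y.sub_mem (S.M_Y _) (S.M_Y _)) (Y.smul_mem _ (hCY b2 hb2))
      have hsmall : ∀ ζ ∈ Ξ, ζ ∉ O → ζ N2 ≤ c * l' := by
        intro ζ hζ hζO
        have := hsm (l'⁻¹ • N2) (Y.smul_mem _ hN2Y)
          (by
            rw [norm_smul, Real.norm_eq_abs, abs_of_pos (inv_pos.2 hl'0), inv_mul_le_iff₀ hl'0]
            linarith)
          (by
            intro ξ hξ
            rw [map_smul, smul_eq_mul, abs_mul, abs_of_pos (inv_pos.2 hl'0), inv_mul_le_iff₀ hl'0]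
            have := hF2 ξ (Finset.mem_union_right _ hξ)
            nlinarith) ζ hζ hζO
        rw [map_smul, smul_eq_mul, inv_mul_le_iff₀ hl'0] at this
        linarith
      have hi1 : (0 : ℝ) < (i : ℝ) + 1 := by positivity
      let b : X := ((i : ℝ) / (i + 1)) • b1 + (1 / ((i : ℝ) + 1)) • b2
      have hb : b ∈ C := hCv hb1 hb2 (by positivity) (by positivity) (by field_simp)
      have hsum : M h2 - M h - (((i + 1 : ℕ) : ℝ) * l') • b =
          (M h1 - M h - (i * l') • b1) + N2 := by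
        have e1 : (((i + 1 : ℕ) : ℝ) * l') • b = (i * l') • b1 + l' • b2 := by
          simp only [b, smul_add, smul_smul]
          congr 2
          · push_cast; field_simp
          · push_cast; field_simp
        rw [e1, hN2]
        abel
      refine ⟨h2, Or.inr ?_, ?_, b, hb, ?_, Ξ1 ∪ (Ξ ∩ {ζ | (c + e) * l' ≤ ζ N2}), ?_, ?_, ?_,
        ?_, ?_⟩
      · rcases hR1 with rfl | hR1
        · exact hR2
        · exact S.R3 _ _ _ _ _ hR1 hR2
      · rw [ha2, ha1]; push_cast; ring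
      · intro ξ hξ
        rw [hsum, map_add]
        have e1 := hF1 ξ hξ
        have e2 := hF2 ξ (Finset.mem_union_left _ hξ)
        have e3 := abs_add_le (ξ (M h1 - M h - (i * l') • b1)) (ξ N2)
        push_cast
        nlinarith
      · exact hc1.union (hΞ.inter_right
          (isClosed_le continuous_const (WeakDual.eval_continuous _)))
      · rintro ζ (hζ | hζ)
        · exact hO1 hζ
        · by_contra hn
          have e1 := hsmall ζ hζ.1 hn
          have e2 : (c + e) * l' ≤ ζ N2 := hζ.2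
          nlinarith
      · rintro ζ (hζ | hζ)
        · exact hd1 hζ
        · exact hΞb hζ.1
      · intro ζ hζ hn
        rw [hsum, map_add]
        have e1 := hA1 ζ hζ fun h => hn (Or.inl h)
        have e2 : ζ N2 < (c + e) * l' := by
          by_contra hge
          exact hn (Or.inr ⟨hζ, not_lt.1 hge⟩)
        push_cast
        nlinarith
      · intro ζ hζ
        rw [hsum, map_add]
        push_cast
        by_cases h1' : ζ ∈ Ξ1
        · have e1 := hB1 ζ hζ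
          have e2 := hG2 ζ h1'
          nlinarith
        · have e1 := hA1 ζ hζ h1'
          have e2 := (dball_le (hΞb hζ) N2).trans hN2n
          have e3 : 0 ≤ (c + e) * l' := by positivity
          nlinarith
  obtain ⟨h', hR, ha, b, hb, hF, Ξ', -, -, -, -, hB⟩ := main p le_rfl
  have hpl : (p : ℝ) * l' = l := by rw [hl']; field_simp
  rw [hpl] at ha hF hB
  refine ⟨h', ?_, ha, b, hb, fun ξ hξ => ?_, fun ζ hζ => ?_⟩
  · rcases hR with rfl | hR
    · linarith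
    · exact hR
  · have := hF ξ hξ
    nlinarith
  · have e1 := hB ζ hζ
    have e2 : 2 * l' ≤ ε / 2 * l := by
      rw [← hpl]
      rw [div_lt_iff₀ hε] at hp
      nlinarith
    nlinarith

/-- Averaging lemma. -/
theorem good_dball (hX : Refl X) (S : IsSys a M R D K Y) {C : Set X} (hCv : Convex ℝ C)
    (hCY : ∀ b ∈ C, b ∈ Y) (hC1 : ∀ b ∈ C, ‖b‖ ≤ 1) (hUA : Good a M R D C 0 ∅)
    {c : ℝ} (hc : 0 < c) : Good a M R D C c (dball X) := by
  let 𝒪 : Set (Set (WeakDual ℝ X)) := {O | IsOpen O ∧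
    ∀ Ξ, IsCompact Ξ → Ξ ⊆ O → Ξ ⊆ dball X → Good a M R D C c Ξ}
  have h0 : (∅ : Set (WeakDual ℝ X)) ∈ 𝒪 := by
    refine ⟨isOpen_empty, fun Ξ _ hΞ _ => ?_⟩
    rw [subset_empty_iff.1 hΞ]
    exact hUA.mono_c
  obtain ⟨O, -, hO⟩ := zorn_subset_nonempty 𝒪 (by
    intro ch hch hchain hne
    refine ⟨⋃₀ ch, ⟨isOpen_sUnion fun t ht => (hch ht).1, fun Ξ hΞ hsub hb => ?_⟩,
      fun s hs => subset_sUnion_of_mem hs⟩
    have : Nonempty ch := hne.to_subtype
    obtain ⟨t, ht⟩ := hΞ.elim_directed_cover (fun t : ch => (t : Set (WeakDual ℝ X)))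
      (fun t => (hch t.2).1) (by rwa [sUnion_eq_iUnion] at hsub) hchain.directed
    exact (hch t.2).2 Ξ hΞ ht hb) ∅ h0
  by_cases hsub : dball X ⊆ O
  · exact hO.prop.2 _ dball_compact hsub subset_rfl
  exfalso
  have hZ : IsCompact (dball X \ O) := dball_compact.diff hO.prop.1
  have hZne : (dball X \ O).Nonempty := sdiff_nonempty.2 hsub
  obtain ⟨V, hV, hVZ, F0, γ, hγ, hsm⟩ := frag hX (W := (Y : Set X) ∩ Metric.closedBall 0 2)
    (S.Y_closed.inter Metric.isClosed_closedBall) (Y.convex.inter (convex_closedBall _ _)) 2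
    (fun x hx => by simpa using hx.2) (S.Y_sep.mono inter_subset_left) hZ hZne hc
  have hmem : O ∪ V ∈ 𝒪 := by
    refine ⟨hO.prop.1.union hV, fun Ξ hΞ hsub' hb => ?_⟩
    refine good_extend S hCv hCY hC1 (hUA.nonempty S) hc hO.prop.2 hΞ hb F0 hγ ?_
    intro N hN hN2 hF ζ hζ hζO
    refine hsm N ⟨hN, by simpa using hN2⟩ hF ζ ⟨?_, hb hζ, hζO⟩
    exact (hsub' hζ).resolve_left hζO
  have := hO.le_of_ge hmem subset_union_left
  obtain ⟨ζ, hζV, -, hζO⟩ := hVZ
  exact hζO (this (Or.inr hζV))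

theorem strong_attain (hX : Refl X) (S : IsSys a M R D K Y) {C : Set X} (hCv : Convex ℝ C)
    (hCY : ∀ b ∈ C, b ∈ Y) (hC1 : ∀ b ∈ C, ‖b‖ ≤ 1) (hUA : Good a M R D C 0 ∅)
    (h : H) {l : ℝ} (hl : 0 < l) (hD : a h + l < D) (n : ℕ) {c : ℝ} (hc : 0 < c) :
    ∃ h', R h n h' ∧ a h' = a h + l ∧ ∃ b ∈ C, ‖M h' - M h - l • b‖ ≤ c * l := by
  obtain ⟨h', h1, h2, b, hb, -, h3⟩ := good_dball hX S hCv hCY hC1 hUA (c := c / 2)
    (by positivity) h l hl hD n ∅ (c / 2) (by positivity)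
  refine ⟨h', h1, h2, b, hb, ?_⟩
  obtain ⟨g, hg, hgx⟩ := exists_dual_vector'' ℝ (M h' - M h - l • b)
  have := h3 (StrongDual.toWeakDual g) ((mem_dual_ball _ _).2 hg)
  have e : (StrongDual.toWeakDual g) (M h' - M h - l • b) = ‖M h' - M h - l • b‖ := hgx
  rw [e] at this
  linarith

theorem remove_slice (hX : Refl X) (S : IsSys a M R D K Y) {C : Set X} (hCc : IsClosed C)
    (hCv : Convex ℝ C) (hCY : ∀ b ∈ C, b ∈ Y) (hC1 : ∀ b ∈ C, ‖b‖ ≤ 1)
    (hUA : Good a M R D C 0 ∅) (ξ0 : StrongDual ℝ X) (m : ℝ) (x : X)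
    (hs : ∀ z ∈ C, m < ξ0 z → ‖z - x‖ ≤ 1 / 8) :
    Good a M R D (C ∩ {z | ξ0 z ≤ m}) 0 ∅ := by
  intro h l hl hD
  choose hk hR ha bk hbk hN using fun k : ℕ =>
    strong_attain hX S hCv hCY hC1 hUA h hl hD k (c := 1 / ((k : ℝ) + 1)) (by positivity)
  let U : Ultrafilter ℕ := hyperfilter ℕ
  have hUat : (U : Filter ℕ) ≤ atTop := Nat.hyperfilter_le_atTop
  obtain ⟨b, hb⟩ := exists_wlim hX U bk 1 (Eventually.of_forall fun k => hC1 _ (hbk k))
  have hbC : b ∈ C := hb.mem hCc hCv (Eventually.of_forall hbk)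
  have hlim : ∀ ξ : StrongDual ℝ X,
      Tendsto (fun k => ξ (M (hk k) - M h - l • b)) (U : Filter ℕ) (𝓝 0) := by
    intro ξ
    have e1 : Tendsto (fun k => M (hk k) - M h - l • bk k) atTop (𝓝 0) := by
      refine squeeze_zero_norm hN ?_
      simpa using tendsto_one_div_add_atTop_nhds_zero_nat.mul_const l
    have e2 := ((ξ.continuous.tendsto 0).comp e1).mono_left hUat
    have e3 := ((hb ξ).sub_const (ξ b)).const_mul l
    have e4 := e2.add e3
    simp only [map_zero, sub_self, mul_zero, add_zero] at e4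
    refine e4.congr fun k => ?_
    simp only [Function.comp, map_sub, map_smul, smul_eq_mul]
    ring
  have hy : M h + l • b ∈ K := by
    have : WLim (U : Filter ℕ) (fun k => M (hk k)) (M h + l • b) := by
      intro ξ
      have e := (hlim ξ).add_const (ξ (M h + l • b))
      rw [zero_add] at e
      refine e.congr fun k => ?_
      simp only [map_sub, map_add]
      ring
    exact this.mem S.K_closed S.K_convex (Eventually.of_forall fun k => S.M_K _)
  obtain ⟨n0, hn0⟩ := S.R4 h _ hy (l / 4) (by positivity)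
  have hbm : ξ0 b ≤ m := by
    by_contra hlt
    have e1 : ∀ᶠ k in (U : Filter ℕ), m < ξ0 (bk k) := (hb ξ0).eventually_const_lt (not_le.1 hlt)
    obtain ⟨k, hk1, hk2, hk3⟩ :=
      (e1.and (((eventually_ge_atTop n0).and (eventually_ge_atTop 3)).filter_mono hUat)).exists
    have f1 := hn0 (hk k) (S.R2 _ _ _ _ hk2 (hR k))
    rw [ha k] at f1
    have f2 := hN k
    have f3 : 1 / ((k : ℝ) + 1) ≤ 1 / 4 := by
      have : (3 : ℝ) ≤ k := by exact_mod_cast hk3
      exact one_div_le_one_div_of_le (by norm_num) (by linarith)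
    have f4 : ‖bk k - b‖ ≤ 1 / 4 := by
      have g1 := hs _ (hbk k) hk1
      have g2 := hs _ hbC (not_le.1 hlt)
      have g3 := norm_sub_le (bk k - x) (b - x)
      rw [sub_sub_sub_cancel_right] at g3
      linarith
    have f5 : M (hk k) - (M h + l • b) = (M (hk k) - M h - l • bk k) + l • (bk k - b) := by
      rw [smul_sub]; abel
    have f6 := norm_add_le (M (hk k) - M h - l • bk k) (l • (bk k - b))
    rw [← f5, norm_smul, Real.norm_eq_abs, abs_of_pos hl] at f6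
    nlinarith
  intro n F ε hε
  have e1 : ∀ᶠ k in (U : Filter ℕ), ∀ ξ ∈ F, |ξ (M (hk k) - M h - l • b)| ≤ ε * l := by
    rw [eventually_all_finset]
    intro ξ _
    have := (hlim ξ).abs
    rw [abs_zero] at this
    exact (this.eventually_lt_const (by positivity)).mono fun k hk => hk.le
  obtain ⟨k, hk1, hk2⟩ := (e1.and (hUat (eventually_ge_atTop n))).exists
  exact ⟨hk k, S.R2 _ _ _ _ hk2 (hR k), ha k, b, ⟨hbC, hbm⟩, hk1, fun ζ hζ => hζ.elim⟩

theorem no_sys (hX : Refl X) (S : IsSys a M R D K Y) : False := by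
  let 𝒞 : Set (Set X) := {C | IsClosed C ∧ Convex ℝ C ∧ (∀ b ∈ C, b ∈ Y) ∧ (∀ b ∈ C, ‖b‖ ≤ 1) ∧
    Good a M R D C 0 ∅}
  have h0 : (Y : Set X) ∩ Metric.closedBall 0 1 ∈ 𝒞 := by
    refine ⟨S.Y_closed.inter Metric.isClosed_closedBall, Y.convex.inter (convex_closedBall _ _),
      fun b hb => hb.1, fun b hb => by simpa using hb.2, ?_⟩
    intro h l hl hD n F ε hε
    obtain ⟨h', h1, h2⟩ := S.R5 h n l hl hD
    have e : M h' - M h - l • (l⁻¹ • (M h' - M h)) = 0 := by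
      rw [smul_smul, mul_inv_cancel₀ hl.ne', one_smul, sub_self]
    refine ⟨h', h1, h2, l⁻¹ • (M h' - M h),
      ⟨Y.smul_mem _ (Y.sub_mem (S.M_Y _) (S.M_Y _)), ?_⟩, fun ξ _ => ?_, fun ζ hζ => hζ.elim⟩
    · rw [mem_closedBall_zero_iff, norm_smul, Real.norm_eq_abs, abs_of_pos (inv_pos.2 hl),
        inv_mul_le_iff₀ hl]
      have := S.R1 _ _ _ h1
      linarith
    · rw [e, map_zero, abs_zero]
      positivity
  obtain ⟨C, -, hC⟩ := zorn_superset_nonempty 𝒞 (by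
    intro ch hch hchain hne
    obtain ⟨C0, hC0⟩ := id hne
    refine ⟨⋂₀ ch, ⟨isClosed_sInter fun t ht => (hch ht).1,
      convex_sInter fun t ht => (hch ht).2.1,
      fun b hb => (hch hC0).2.2.1 b (hb C0 hC0), fun b hb => (hch hC0).2.2.2.1 b (hb C0 hC0), ?_⟩,
      fun s hs => sInter_subset_of_mem hs⟩
    intro h l hl hD n F ε hε
    let A : Set X → Set X := fun T => {b | b ∈ T ∧ ∃ h', R h n h' ∧ a h' = a h + l ∧
      ∀ ξ ∈ F, |ξ (M h' - M h - l • b)| ≤ ε / 2 * l}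
    obtain ⟨U, hU⟩ := exists_ultra_of_chain ch hchain hne A
      (fun T T' hT b hb => ⟨hT hb.1, hb.2⟩)
      (by
        intro T hT
        obtain ⟨h', h1, h2, b, hb, h3, -⟩ :=
          (hch hT).2.2.2.2 h l hl hD n F (ε / 2) (by positivity)
        exact ⟨b, hb, h', h1, h2, h3⟩)
    obtain ⟨z, hz⟩ := exists_wlim hX U id 1
      (mem_of_superset (hU C0 hC0) fun b hb => (hch hC0).2.2.2.1 b hb.1)
    have hzm : z ∈ ⋂₀ ch := fun T hT =>
      hz.mem (hch hT).1 (hch hT).2.1 (mem_of_superset (hU T hT) fun b hb => hb.1)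
    have e1 : ∀ᶠ b in (U : Filter X), ∀ ξ ∈ F, |ξ b - ξ z| ≤ ε / 2 := by
      rw [eventually_all_finset]
      intro ξ _
      have := ((hz ξ).sub_const (ξ z)).abs
      rw [sub_self, abs_zero] at this
      exact (this.eventually_lt_const (by positivity)).mono fun k hk => hk.le
    obtain ⟨b, hb1, -, h', h1, h2, h3⟩ := (e1.and (hU C0 hC0)).exists
    refine ⟨h', h1, h2, z, hzm, fun ξ hξ => ?_, fun ζ hζ => hζ.elim⟩
    have f1 := hb1 ξ hξ
    have f2 := h3 ξ hξ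
    have f3 : ξ (M h' - M h - l • z) = ξ (M h' - M h - l • b) + l * (ξ b - ξ z) := by
      simp only [map_sub, map_smul, smul_eq_mul]
      ring
    have f4 := abs_add_le (ξ (M h' - M h - l • b)) (l * (ξ b - ξ z))
    rw [abs_mul, abs_of_pos hl] at f4
    rw [f3]
    nlinarith) _ h0
  obtain ⟨hc, hv, hY, h1, hg⟩ := hC.prop
  obtain ⟨ξ0, m, x, ⟨z, hz, hzm⟩, hs⟩ := dent hX (hg.nonempty S) hc hv 1 h1
    (S.Y_sep.mono fun b hb => hY b hb) (δ := 1 / 8) (by norm_num)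
  have hmem : C ∩ {z | ξ0 z ≤ m} ∈ 𝒞 :=
    ⟨hc.inter (isClosed_le ξ0.continuous continuous_const),
      hv.inter (convex_halfSpace_le ξ0.toLinearMap.isLinear _),
      fun b hb => hY b hb.1, fun b hb => h1 b hb.1, remove_slice hX S hc hv hY h1 hg ξ0 m x hs⟩
  have := hC.le_of_le hmem inter_subset_left
  exact absurd (this hz).2 (not_le.2 hzm)

end Vale.Agent.P079
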