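import Vale.Agent.P079.Abstract

namespace Vale.Agent.P079

open Filter Topology Set

variable {X : Type*} [NormedAddCommGroup X] [NormedSpace ℝ X]

/-- Nonempty closed convex invariant sets. -/
def Inv (T : X → X) (K : Set X) : Prop :=
  K.Nonempty ∧ IsClosed K ∧ Convex ℝ K ∧ MapsTo T K K

/-- Nonexpansive on a set. -/
def NE (T : X → X) (K : Set X) : Prop := ∀ x ∈ K, ∀ y ∈ K, ‖T x - T y‖ ≤ ‖x - y‖

omit [NormedSpace ℝ X] in
theorem NE.continuousOn {T : X → X} {K : Set X} (h : NE T K) : ContinuousOn T K := by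
  have : LipschitzOnWith 1 T K := by
    refine LipschitzOnWith.of_dist_le_mul fun x hx y hy => ?_
    simpa [dist_eq_norm] using h x hx y hy
  exact this.continuousOn

theorem exists_sep_inv {T : X → X} {C : Set X} (hC : Inv T C) (hT : NE T C) :
    ∃ C0 ⊆ C, Inv T C0 ∧ TopologicalSpace.IsSeparable C0 := by
  obtain ⟨⟨x0, hx0⟩, hcl, hcv, hm⟩ := hC
  let A : ℕ → Set X := fun n => Nat.rec {x0} (fun _ s => convexHull ℝ (s ∪ T '' s)) n
  have hA : ∀ n, A (n + 1) = convexHull ℝ (A n ∪ T '' A n) := fun n => rfl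
  have hAC : ∀ n, A n ⊆ C := by
    intro n
    induction n with
    | zero => exact singleton_subset_iff.2 hx0
    | succ n ih =>
      rw [hA]
      exact convexHull_min (union_subset ih ((image_mono ih).trans hm.image_subset)) hcv
  have hAs : ∀ n, TopologicalSpace.IsSeparable (A n) := by
    intro n
    induction n with
    | zero => exact (finite_singleton x0).isSeparable
    | succ n ih =>
      rw [hA]
      have h1 := (ih.union ((hT.continuousOn.mono (hAC n)).isSeparable_image ih)).span (R := ℝ)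
      exact h1.mono (convexHull_min Submodule.subset_span (Submodule.convex _))
  have hAm : Monotone A := monotone_nat_of_le_succ fun n => by
    rw [hA]
    exact subset_union_left.trans (subset_convexHull _ _)
  have hAv : ∀ n, Convex ℝ (A n) := by
    intro n
    cases n with
    | zero => exact convex_singleton x0
    | succ n => rw [hA]; exact convex_convexHull _ _
  have hsub : closure (⋃ n, A n) ⊆ C := closure_minimal (iUnion_subset hAC) hcl
  refine ⟨closure (⋃ n, A n), hsub, ⟨⟨x0, subset_closure (mem_iUnion.2 ⟨0, rfl⟩)⟩,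
    isClosed_closure, (hAm.directed_le.convex_iUnion hAv).closure, ?_⟩,
    (TopologicalSpace.IsSeparable.iUnion hAs).closure⟩
  have h1 : MapsTo T (⋃ n, A n) (⋃ n, A n) := by
    intro x hx
    obtain ⟨n, hn⟩ := mem_iUnion.1 hx
    refine mem_iUnion.2 ⟨n + 1, ?_⟩
    rw [hA]
    exact subset_convexHull _ _ (Or.inr (mem_image_of_mem _ hn))
  exact h1.closure_of_continuousOn (hT.continuousOn.mono hsub)

theorem exists_minimal (hX : Refl X) {T : X → X} {C : Set X} (hC : Inv T C) (r : ℝ)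
    (hb : ∀ x ∈ C, ‖x‖ ≤ r) :
    ∃ K ⊆ C, Inv T K ∧ ∀ L ⊆ K, Inv T L → K ⊆ L := by
  obtain ⟨K, -, hK⟩ := zorn_superset_nonempty {K | K ⊆ C ∧ Inv T K} (by
    intro ch hch hchain hne
    obtain ⟨z, hz⟩ := chain_inter hX ch hchain hne r (fun S hS x hx => hb x ((hch hS).1 hx))
      (fun S hS => ⟨(hch hS).2.1, (hch hS).2.2.1, (hch hS).2.2.2.1⟩)
    obtain ⟨S0, hS0⟩ := hne
    exact ⟨⋂₀ ch, ⟨(sInter_subset_of_mem hS0).trans (hch hS0).1, ⟨z, hz⟩,
      isClosed_sInter fun t ht => (hch ht).2.2.1, convex_sInter fun t ht => (hch ht).2.2.2.1,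
      fun x hx S hS => (hch hS).2.2.2.2 (hx S hS)⟩, fun s hs => sInter_subset_of_mem hs⟩)
    C ⟨subset_rfl, hC⟩
  exact ⟨K, hK.prop.1, hK.prop.2, fun L hL hLi => hK.le_of_le ⟨hL.trans hK.prop.1, hLi⟩ hL⟩

/-- The Goebel-Karlovitz lemma, in the form needed. -/
theorem gk (hX : Refl X) {T : X → X} {K : Set X} (hK : Inv T K) (hT : NE T K) (r : ℝ)
    (hb : ∀ x ∈ K, ‖x‖ ≤ r) (hmin : ∀ L ⊆ K, Inv T L → K ⊆ L) {ρ : ℝ}
    {y : X} (hy : y ∈ K) (hz : ∀ η > 0, ∃ z ∈ K, ‖z - T z‖ ≤ η ∧ ‖z - y‖ ≤ ρ) :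
    ∀ u ∈ K, ∀ v ∈ K, ‖u - v‖ ≤ ρ := by
  obtain ⟨hne, hcl, hcv, hm⟩ := hK
  choose z hzK hzT hzy using fun k : ℕ => hz (1 / ((k : ℝ) + 1)) (by positivity)
  let U : Ultrafilter ℕ := hyperfilter ℕ
  have hUat : (U : Filter ℕ) ≤ atTop := Nat.hyperfilter_le_atTop
  have hsmall : ∀ δ > 0, ∀ᶠ k in (U : Filter ℕ), ‖z k - T (z k)‖ ≤ δ := by
    intro δ hδ
    have := (tendsto_one_div_add_atTop_nhds_zero_nat (𝕜 := ℝ)).eventually_lt_const hδ
    exact (this.filter_mono hUat).mono fun k hk => (hzT k).trans hk.le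
  let A : Set X := {x | x ∈ K ∧ ∀ δ > 0, ∀ᶠ k in (U : Filter ℕ), ‖z k - x‖ ≤ ρ + δ}
  have hA : Inv T A := by
    refine ⟨⟨y, hy, fun δ hδ => Eventually.of_forall fun k => by linarith [hzy k]⟩, ?_, ?_, ?_⟩
    · refine isClosed_of_closure_subset fun x hx => ⟨?_, fun δ hδ => ?_⟩
      · exact closure_minimal (fun x hx => hx.1) hcl hx
      · obtain ⟨x', hx', hd⟩ := Metric.mem_closure_iff.1 hx (δ / 2) (by positivity)
        filter_upwards [hx'.2 (δ / 2) (by positivity)] with k hk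
        rw [dist_comm, dist_eq_norm] at hd
        have := norm_sub_le_norm_sub_add_norm_sub (z k) x' x
        linarith
    · intro x hx x' hx' s t hs ht hst
      refine ⟨hcv hx.1 hx'.1 hs ht hst, fun δ hδ => ?_⟩
      filter_upwards [hx.2 δ hδ, hx'.2 δ hδ] with k h1 h2
      have h3 : x ∈ Metric.closedBall (z k) (ρ + δ) := by
        rw [Metric.mem_closedBall, dist_comm, dist_eq_norm]; exact h1
      have h4 : x' ∈ Metric.closedBall (z k) (ρ + δ) := by
        rw [Metric.mem_closedBall, dist_comm, dist_eq_norm]; exact h2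
      have h5 := convex_closedBall (z k) (ρ + δ) h3 h4 hs ht hst
      rwa [Metric.mem_closedBall, dist_comm, dist_eq_norm] at h5
    · intro x hx
      refine ⟨hm hx.1, fun δ hδ => ?_⟩
      filter_upwards [hx.2 (δ / 2) (by positivity), hsmall (δ / 2) (by positivity)] with k h1 h2
      have h3 := norm_sub_le_norm_sub_add_norm_sub (z k) (T (z k)) (T x)
      have h4 := hT _ (hzK k) _ hx.1
      linarith
  have hKA : K ⊆ A := hmin A (fun x hx => hx.1) hA
  obtain ⟨w, hw⟩ := exists_wlim hX U z r (Eventually.of_forall fun k => hb _ (hzK k))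
  have hwK : w ∈ K := hw.mem hcl hcv (Eventually.of_forall hzK)
  have hwx : ∀ x ∈ K, ‖w - x‖ ≤ ρ := by
    intro x hx
    have h1 : WLim (U : Filter ℕ) (fun k => z k - x) (w - x) :=
      hw.sub (fun ξ => tendsto_const_nhds)
    exact h1.norm_le (hKA hx).2
  have hKT : K ⊆ closure (convexHull ℝ (T '' K)) := by
    have hsub : closure (convexHull ℝ (T '' K)) ⊆ K :=
      closure_minimal (convexHull_min hm.image_subset hcv) hcl
    refine hmin _ hsub ⟨?_, isClosed_closure, (convex_convexHull _ _).closure, fun x hx => ?_⟩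
    · exact ((hne.image T).mono (subset_convexHull _ _)).mono subset_closure
    · exact subset_closure (subset_convexHull _ _ (mem_image_of_mem _ (hsub hx)))
  let B : Set X := K ∩ ⋂ x ∈ K, Metric.closedBall x ρ
  have hB : Inv T B := by
    refine ⟨⟨w, hwK, ?_⟩, hcl.inter (isClosed_biInter fun x _ => Metric.isClosed_closedBall),
      hcv.inter (convex_iInter₂ fun x _ => convex_closedBall _ _), fun u hu => ⟨hm hu.1, ?_⟩⟩
    · refine mem_iInter₂.2 fun x hx => ?_
      rw [Metric.mem_closedBall, dist_eq_norm]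
      exact hwx x hx
    · refine mem_iInter₂.2 fun x hx => ?_
      have h1 : closure (convexHull ℝ (T '' K)) ⊆ Metric.closedBall (T u) ρ := by
        refine closure_minimal (convexHull_min ?_ (convex_closedBall _ _))
          Metric.isClosed_closedBall
        rintro _ ⟨v, hv, rfl⟩
        have h2 := mem_iInter₂.1 hu.2 v hv
        rw [Metric.mem_closedBall, dist_eq_norm] at h2
        rw [Metric.mem_closedBall, dist_comm, dist_eq_norm]
        exact (hT _ hu.1 _ hv).trans h2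
      have h3 := h1 (hKT hx)
      rw [Metric.mem_closedBall, dist_comm] at h3
      exact h3
  intro u hu v hv
  have := mem_iInter₂.1 (hmin B inter_subset_left hB hu).2 v hv
  rwa [Metric.mem_closedBall, dist_eq_norm] at this

theorem exists_resolvent [CompleteSpace X] {T : X → X} {K : Set X} (hK : Inv T K) (hT : NE T K)
    {s : ℝ} (hs0 : 0 ≤ s) (hs1 : s < 1) :
    ∃ J : X → X, ∀ z ∈ K, J z ∈ K ∧ J z = (1 - s) • z + s • T (J z) := by
  obtain ⟨hne, hcl, hcv, hm⟩ := hK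
  have key : ∀ z, ∃ w, z ∈ K → w ∈ K ∧ w = (1 - s) • z + s • T w := by
    intro z
    by_cases hz : z ∈ K
    · have : Nonempty K := hne.to_subtype
      have : CompleteSpace K := hcl.completeSpace_coe
      let f : K → K := fun w => ⟨(1 - s) • z + s • T w,
        hcv hz (hm w.2) (by linarith) hs0 (by ring)⟩
      have hf : ContractingWith ⟨s, hs0⟩ f := by
        refine ⟨hs1, LipschitzWith.of_dist_le_mul fun u v => ?_⟩
        rw [Subtype.dist_eq, Subtype.dist_eq, dist_eq_norm, dist_eq_norm]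
        have e : ((f u : K) : X) - f v = s • (T u - T v) := by
          simp only [f, smul_sub]; abel
        rw [e, norm_smul, Real.norm_eq_abs, abs_of_nonneg hs0]
        exact mul_le_mul_of_nonneg_left (hT _ u.2 _ v.2) hs0
      have hfix := hf.fixedPoint_isFixedPt
      exact ⟨(hf.fixedPoint f : K), fun _ => ⟨(hf.fixedPoint f : K).2,
        (congrArg Subtype.val hfix).symm⟩⟩
    · exact ⟨z, fun h => absurd h hz⟩
  choose J hJ using key
  exact ⟨J, hJ⟩

/-- Admissible maps with contraction factor `L`. -/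
def Adm (T : X → X) (K : Set X) (d : ℝ) (P : X → X) (L : ℝ) : Prop :=
  0 < L ∧ MapsTo P K K ∧ (∀ x ∈ K, ∀ y ∈ K, ‖P x - P y‖ ≤ L * ‖x - y‖) ∧
    ∃ c, 0 ≤ c ∧ ∀ g ∈ K, ‖P g - g‖ ≤ d * (1 - L) + c * ‖g - T g‖

omit [NormedSpace ℝ X] in
theorem Adm.comp {T : X → X} {K : Set X} {d : ℝ} {P Q : X → X} {L L' : ℝ}
    (hP : Adm T K d P L) (hQ : Adm T K d Q L') : Adm T K d (P ∘ Q) (L * L') := by
  obtain ⟨h1, h2, h3, c, hc, h4⟩ := hP
  obtain ⟨h1', h2', h3', c', hc', h4'⟩ := hQ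
  refine ⟨mul_pos h1 h1', h2.comp h2', fun x hx y hy => ?_, c + L * c', by positivity,
    fun g hg => ?_⟩
  · have e1 := h3 _ (h2' hx) _ (h2' hy)
    have e2 := mul_le_mul_of_nonneg_left (h3' x hx y hy) h1.le
    simp only [Function.comp]
    linarith
  · have e1 := h3 _ (h2' hg) _ hg
    have e2 := mul_le_mul_of_nonneg_left (h4' g hg) h1.le
    have e3 := h4 g hg
    have e4 := norm_sub_le_norm_sub_add_norm_sub (P (Q g)) (P g) g
    simp only [Function.comp]
    linarith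

theorem exists_step [CompleteSpace X] {T : X → X} {K : Set X} (hK : Inv T K) (hT : NE T K)
    {d : ℝ} (hd0 : 0 < d) (hd : ∀ x ∈ K, ∀ y ∈ K, ‖x - y‖ ≤ d) {t : ℝ} (ht0 : 0 ≤ t)
    (ht1 : t < 1) {η : ℝ} (hη : 0 < η) :
    ∃ Q : X → X, Adm T K d Q (1 - t) ∧ ∀ z ∈ K, ‖Q z - T (Q z)‖ ≤ η := by
  set s : ℝ := d / (d + η) with hs
  have hs0 : 0 ≤ s := by positivity
  have hs1 : s < 1 := by rw [hs, div_lt_one (by positivity)]; linarith
  have hsd : (1 - s) * d ≤ η := by
    have : 1 - s = η / (d + η) := by rw [hs]; field_simp; ring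
    rw [this, div_mul_eq_mul_div, div_le_iff₀ (by positivity)]
    nlinarith
  obtain ⟨J, hJ⟩ := exists_resolvent hK hT hs0 hs1
  obtain ⟨⟨x0, hx0⟩, hcl, hcv, hm⟩ := hK
  have hJne : ∀ x ∈ K, ∀ y ∈ K, ‖J x - J y‖ ≤ ‖x - y‖ := by
    intro x hx y hy
    have e : J x - J y = (1 - s) • (x - y) + s • (T (J x) - T (J y)) := by
      conv_lhs => rw [(hJ x hx).2, (hJ y hy).2]
      simp only [smul_sub]; abel
    have e1 := norm_add_le ((1 - s) • (x - y)) (s • (T (J x) - T (J y)))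
    rw [← e, norm_smul, norm_smul, Real.norm_eq_abs, Real.norm_eq_abs, abs_of_nonneg hs0,
      abs_of_nonneg (by linarith)] at e1
    have e2 := mul_le_mul_of_nonneg_left (hT _ (hJ x hx).1 _ (hJ y hy).1) hs0
    have e3 : (1 - s) * ‖J x - J y‖ ≤ (1 - s) * ‖x - y‖ := by linarith
    exact le_of_mul_le_mul_left e3 (by linarith)
  have hJg : ∀ g ∈ K, ‖J g - g‖ ≤ s / (1 - s) * ‖g - T g‖ := by
    intro g hg
    have e : J g - g = s • (T (J g) - g) := by
      conv_lhs => rw [(hJ g hg).2]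
      simp only [smul_sub, sub_smul, one_smul]; abel
    have e1 : ‖J g - g‖ = s * ‖T (J g) - g‖ := by
      rw [e, norm_smul, Real.norm_eq_abs, abs_of_nonneg hs0]
    have e2 := norm_sub_le_norm_sub_add_norm_sub (T (J g)) (T g) g
    have e3 := hT _ (hJ g hg).1 _ hg
    rw [norm_sub_rev (T g) g] at e2
    rw [div_mul_eq_mul_div, le_div_iff₀ (by linarith)]
    nlinarith
  have hmem : ∀ z ∈ K, (1 - t) • z + t • x0 ∈ K := fun z hz =>
    hcv hz hx0 (by linarith) ht0 (by ring)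
  refine ⟨fun z => J ((1 - t) • z + t • x0), ⟨by linarith, fun z hz => (hJ _ (hmem z hz)).1,
    fun x hx y hy => ?_, s / (1 - s), div_nonneg hs0 (by linarith), fun g hg => ?_⟩,
    fun z hz => ?_⟩
  · refine (hJne _ (hmem x hx) _ (hmem y hy)).trans (le_of_eq ?_)
    rw [add_sub_add_right_eq_sub, ← smul_sub, norm_smul, Real.norm_eq_abs,
      abs_of_nonneg (by linarith)]
  · have e1 := norm_sub_le_norm_sub_add_norm_sub (J ((1 - t) • g + t • x0)) (J g) g
    have e2 := hJne _ (hmem g hg) _ hg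
    have e3 : (1 - t) • g + t • x0 - g = t • (x0 - g) := by
      simp only [smul_sub, sub_smul, one_smul]; abel
    rw [e3, norm_smul, Real.norm_eq_abs, abs_of_nonneg ht0] at e2
    have e4 := mul_le_mul_of_nonneg_left (hd _ hx0 _ hg) ht0
    have e5 := hJg g hg
    simp only
    nlinarith
  · set w := (1 - t) • z + t • x0 with hw
    have hwK := hmem z hz
    have e : J w - T (J w) = (1 - s) • (w - T (J w)) := by
      conv_lhs => rw [(hJ w hwK).2]
      rw [← (hJ w hwK).2]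
      conv_lhs => rw [(hJ w hwK).2]
      rw [← (hJ w hwK).2]
      have := (hJ w hwK).2
      calc J w - T (J w) = ((1 - s) • w + s • T (J w)) - T (J w) := by rw [← this]
        _ = (1 - s) • (w - T (J w)) := by simp only [smul_sub, sub_smul, one_smul]; abel
    simp only
    rw [e, norm_smul, Real.norm_eq_abs, abs_of_nonneg (by linarith)]
    have := mul_le_mul_of_nonneg_left (hd _ hwK _ (hm (hJ w hwK).1)) (by linarith : 0 ≤ 1 - s)
    linarith

theorem no_minimal [CompleteSpace X] (hX : Refl X) {T : X → X} {K : Set X} (hK : Inv T K)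
    (hT : NE T K) (r : ℝ) (hb : ∀ x ∈ K, ‖x‖ ≤ r) (hsep : TopologicalSpace.IsSeparable K)
    {d : ℝ} (hd0 : 0 < d) (hd : ∀ x ∈ K, ∀ y ∈ K, ‖x - y‖ ≤ d)
    (hgk : ∀ y ∈ K, ∀ ε > 0, ∃ η > 0, ∀ z ∈ K, ‖z - T z‖ ≤ η → d - ε ≤ ‖z - y‖) : False := by
  obtain ⟨x0, hx0⟩ := hK.1
  choose Q hQ hQη using fun k : ℕ => exists_step hK hT hd0 hd (t := 0) le_rfl one_pos
    (η := 1 / ((k : ℝ) + 1)) (by positivity)
  let f : ℕ → X := fun k => Q k x0
  have hfK : ∀ k, f k ∈ K := fun k => (hQ k).2.1 hx0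
  let U : Ultrafilter ℕ := hyperfilter ℕ
  have hUat : (U : Filter ℕ) ≤ atTop := Nat.hyperfilter_le_atTop
  let H := {p : (X → X) × ℝ // Adm T K d p.1 p.2}
  have hex : ∀ h : H, ∃ z, WLim (U : Filter ℕ) (fun k => h.1.1 (f k)) z := fun h =>
    exists_wlim hX U _ r (Eventually.of_forall fun k => hb _ (h.2.2.1 (hfK k)))
  choose M hM using hex
  have hMK : ∀ h, M h ∈ K := fun h =>
    (hM h).mem hK.2.1 hK.2.2.1 (Eventually.of_forall fun k => h.2.2.1 (hfK k))
  let R : H → ℕ → H → Prop := fun h n h' => ∃ q : H, h'.1.1 = h.1.1 ∘ q.1.1 ∧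
    h'.1.2 = h.1.2 * q.1.2 ∧ ∀ z ∈ K, ‖q.1.1 z - T (q.1.1 z)‖ ≤ 1 / ((n : ℝ) + 1)
  refine no_sys hX (a := fun h : H => d * (1 - h.1.2)) (M := M) (R := R) (D := d) (K := K)
    (Y := (Submodule.span ℝ K).topologicalClosure)
    ⟨hK.2.1, hK.2.2.1, Submodule.isClosed_topologicalClosure _, hsep.span.closure, hMK,
      fun h => Submodule.le_topologicalClosure _ (Submodule.subset_span (hMK h)),
      ⟨⟨(Q 0, 1 - 0), hQ 0⟩, by simpa using hd0⟩, ?_, ?_, ?_, ?_, ?_⟩
  · rintro h n h' ⟨q, e1, e2, -⟩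
    refine ((hM h').sub (hM h)).norm_le fun η hη => ?_
    obtain ⟨hL, -, hlip, -⟩ := h.2
    obtain ⟨-, hqm, -, c, hc, hq⟩ := q.2
    have hpos : 0 < η / (h.1.2 * c + 1) := by positivity
    have := (tendsto_one_div_add_atTop_nhds_zero_nat (𝕜 := ℝ)).eventually_lt_const hpos
    filter_upwards [this.filter_mono hUat] with k hk
    have f1 := hlip _ (hqm (hfK k)) _ (hfK k)
    have f2 := mul_le_mul_of_nonneg_left (hq _ (hfK k)) hL.le
    have f3 : ‖f k - T (f k)‖ ≤ η / (h.1.2 * c + 1) := (hQη k x0 hx0).trans hk.le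
    have f4 : (h.1.2 * c + 1) * ‖f k - T (f k)‖ ≤ η := by
      rwa [le_div_iff₀' (by positivity)] at f3
    rw [e1, e2]
    simp only [Function.comp]
    nlinarith [norm_nonneg (f k - T (f k))]
  · rintro h m n h' hmn ⟨q, e1, e2, e3⟩
    refine ⟨q, e1, e2, fun z hz => (e3 z hz).trans ?_⟩
    have : (m : ℝ) ≤ n := by exact_mod_cast hmn
    exact one_div_le_one_div_of_le (by positivity) (by linarith)
  · rintro h n h' m h'' ⟨q, e1, e2, e3⟩ ⟨q', e1', e2', -⟩
    refine ⟨⟨(q.1.1 ∘ q'.1.1, q.1.2 * q'.1.2), q.2.comp q'.2⟩, ?_, ?_, fun z hz => ?_⟩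
    · rw [e1', e1]; rfl
    · rw [e2', e2]; simp only; ring
    · exact e3 _ (q'.2.2.1 hz)
  · intro h y hy ε hε
    obtain ⟨η, hη, hz⟩ := hgk y hy (ε / 2) (by positivity)
    obtain ⟨hL, -, -, c, hc, hp⟩ := h.2
    have hpos : 0 < min η (ε / 2 / (c + 1)) := lt_min hη (by positivity)
    obtain ⟨n, hn⟩ := exists_nat_one_div_lt hpos
    refine ⟨n, ?_⟩
    rintro h' ⟨q, e1, e2, e3⟩
    have hg : q.1.1 x0 ∈ K := q.2.2.1 hx0
    have f0 := (e3 x0 hx0).trans hn.le
    have f1 := hz _ hg (f0.trans (min_le_left _ _))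
    have f2 := hp _ hg
    have f3 : (c + 1) * ‖q.1.1 x0 - T (q.1.1 x0)‖ ≤ ε / 2 := by
      have := f0.trans (min_le_right _ _)
      rwa [le_div_iff₀' (by positivity)] at this
    have f4 : ‖M h' - h'.1.1 x0‖ ≤ h'.1.2 * d := by
      have g1 : WLim (U : Filter ℕ) (fun k => h'.1.1 (f k) - h'.1.1 x0) (M h' - h'.1.1 x0) :=
        (hM h').sub (fun ξ => tendsto_const_nhds)
      refine g1.norm_le fun η' hη' => Eventually.of_forall fun k => ?_
      have g2 := h'.2.2.2.1 _ (hfK k) _ hx0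
      have g3 := mul_le_mul_of_nonneg_left (hd _ (hfK k) _ hx0) h'.2.1.le
      linarith
    have f5 : h'.1.1 x0 = h.1.1 (q.1.1 x0) := by rw [e1]; rfl
    rw [f5] at f4
    have f6 := norm_sub_le_norm_sub_add_norm_sub (q.1.1 x0) (h.1.1 (q.1.1 x0)) y
    have f7 := norm_sub_le_norm_sub_add_norm_sub (h.1.1 (q.1.1 x0)) (M h') y
    rw [norm_sub_rev (q.1.1 x0) (h.1.1 (q.1.1 x0))] at f6
    rw [norm_sub_rev (h.1.1 (q.1.1 x0)) (M h')] at f7
    nlinarith [norm_nonneg (q.1.1 x0 - T (q.1.1 x0))]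
  · intro h n l hl hlt
    have hL := h.2.1
    have hdL : 0 < d * h.1.2 := mul_pos hd0 hL
    obtain ⟨P, hP, hPη⟩ := exists_step hK hT hd0 hd (t := l / (d * h.1.2)) (by positivity)
      (by rw [div_lt_one hdL]; linarith) (η := 1 / ((n : ℝ) + 1)) (by positivity)
    refine ⟨⟨(h.1.1 ∘ P, h.1.2 * (1 - l / (d * h.1.2))), h.2.comp hP⟩,
      ⟨⟨(P, 1 - l / (d * h.1.2)), hP⟩, rfl, rfl, hPη⟩, ?_⟩
    simp only
    field_simp
    ring

theorem fixed_point [CompleteSpace X] (hX : Refl X) {T : X → X} {C : Set X} (hC : Inv T C)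
    (hT : NE T C) (hbd : Bornology.IsBounded C) : ∃ x ∈ C, T x = x := by
  obtain ⟨r, hr⟩ := hbd.exists_norm_le
  obtain ⟨C0, hC0, hC0i, hsep⟩ := exists_sep_inv hC hT
  obtain ⟨K, hKC0, hK, hmin⟩ := exists_minimal hX hC0i r fun x hx => hr x (hC0 hx)
  have hKC : K ⊆ C := hKC0.trans hC0
  have hTK : NE T K := fun x hx y hy => hT x (hKC hx) y (hKC hy)
  have hb : ∀ x ∈ K, ‖x‖ ≤ r := fun x hx => hr x (hKC hx)
  have hd : ∀ x ∈ K, ∀ y ∈ K, ‖x - y‖ ≤ Metric.diam K := fun x hx y hy => by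
    rw [← dist_eq_norm]
    exact Metric.dist_le_diam_of_mem (hbd.subset hKC) hx hy
  obtain ⟨x0, hx0⟩ := hK.1
  by_contra hno
  have hd0 : 0 < Metric.diam K := by
    refine lt_of_lt_of_le ?_ (hd _ (hK.2.2.2 hx0) _ hx0)
    rw [norm_pos_iff, sub_ne_zero]
    exact fun h => hno ⟨x0, hKC hx0, h⟩
  refine no_minimal hX hK hTK r hb (hsep.mono hKC0) hd0 hd fun y hy ε hε => ?_
  by_contra hcon
  have h1 := gk hX hK hTK r hb hmin (ρ := Metric.diam K - ε) hy (by
    intro η hη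
    by_contra h2
    refine hcon ⟨η, hη, fun z hz hzT => ?_⟩
    by_contra h3
    exact h2 ⟨z, hz, hzT, (not_le.1 h3).le⟩)
  have h2 : Metric.diam K ≤ Metric.diam K - ε := by
    refine Metric.diam_le_of_forall_dist_le ?_ fun u hu v hv => ?_
    · simpa using h1 x0 hx0 x0 hx0
    · rw [dist_eq_norm]
      exact h1 u hu v hv
  linarith

end Vale.Agent.P079
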