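import Mathlib

namespace Vale.Agent.P079

open Filter Topology Set

variable {X : Type*} [NormedAddCommGroup X] [NormedSpace ℝ X]

/-- Weak convergence of `x` to `z` along the filter `U`. -/
def WLim {ι : Type*} (U : Filter ι) (x : ι → X) (z : X) : Prop :=
  ∀ ξ : StrongDual ℝ X, Tendsto (fun i => ξ (x i)) U (𝓝 (ξ z))

/-- Reflexivity. -/
def Refl (X : Type*) [NormedAddCommGroup X] [NormedSpace ℝ X] : Prop :=
  Function.Surjective (NormedSpace.inclusionInDoubleDual ℝ X)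

theorem mem_dual_ball (f : StrongDual ℝ X) (r : ℝ) :
    f ∈ Metric.closedBall (0 : StrongDual ℝ X) r ↔ ‖f‖ ≤ r := mem_closedBall_zero_iff

theorem exists_wlim (hX : Refl X) {ι : Type*} (U : Ultrafilter ι) (x : ι → X) (r : ℝ)
    (hb : ∀ᶠ i in (U : Filter ι), ‖x i‖ ≤ r) : ∃ z, WLim (U : Filter ι) x z := by
  let y : ι → WeakDual ℝ (StrongDual ℝ X) := fun i =>
    StrongDual.toWeakDual (NormedSpace.inclusionInDoubleDual ℝ X (x i))
  have hc := WeakDual.isCompact_closedBall (𝕜 := ℝ) (E := StrongDual ℝ X) 0 r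
  have hle : (↑(U.map y) : Filter _) ≤
      𝓟 (WeakDual.toStrongDual ⁻¹' Metric.closedBall (0 : StrongDual ℝ (StrongDual ℝ X)) r) := by
    rw [le_principal_iff, Ultrafilter.coe_map, mem_map]
    filter_upwards [hb] with i hi
    exact (mem_dual_ball _ _).2 ((NormedSpace.double_dual_bound ℝ X (x i)).trans hi)
  obtain ⟨w, -, hw⟩ := hc.ultrafilter_le_nhds (U.map y) hle
  obtain ⟨z, hz⟩ := hX (WeakDual.toStrongDual w)
  refine ⟨z, fun ξ => ?_⟩
  have h1 : Tendsto y (U : Filter ι) (𝓝 w) := hw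
  have h2 := ((WeakDual.eval_continuous (𝕜 := ℝ) (E := StrongDual ℝ X) ξ).tendsto w).comp h1
  have h3 : w ξ = ξ z := by
    have := congrArg (fun f : StrongDual ℝ (StrongDual ℝ X) => f ξ) hz
    exact this.symm
  rw [h3] at h2
  exact h2

theorem WLim.mem {ι : Type*} {U : Filter ι} [U.NeBot] {x : ι → X} {z : X} (hz : WLim U x z)
    {S : Set X} (hc : IsClosed S) (hv : Convex ℝ S) (hS : ∀ᶠ i in U, x i ∈ S) : z ∈ S := by
  by_contra hn
  obtain ⟨f, u, h1, h2⟩ := geometric_hahn_banach_closed_point hv hc hn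
  have : f z ≤ u := le_of_tendsto (hz f) (hS.mono fun i hi => (h1 _ hi).le)
  linarith

theorem WLim.sub {ι : Type*} {U : Filter ι} {x y : ι → X} {z w : X} (hz : WLim U x z)
    (hw : WLim U y w) : WLim U (fun i => x i - y i) (z - w) := by
  intro ξ
  simpa only [map_sub] using (hz ξ).sub (hw ξ)

theorem WLim.norm_le {ι : Type*} {U : Filter ι} [U.NeBot] {x : ι → X} {z : X} (hz : WLim U x z)
    {r : ℝ} (h : ∀ η > 0, ∀ᶠ i in U, ‖x i‖ ≤ r + η) : ‖z‖ ≤ r := by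
  refine le_of_forall_pos_le_add fun η hη => ?_
  have := hz.mem (S := Metric.closedBall 0 (r + η)) Metric.isClosed_closedBall
    (convex_closedBall _ _) ((h η hη).mono fun i hi => by simpa using hi)
  simpa using this

theorem exists_ultra_of_chain {α β : Type*} (c : Set (Set α)) (hc : IsChain (· ⊆ ·) c)
    (hne : c.Nonempty) (A : Set α → Set β) (hA : Monotone A) (hAne : ∀ S ∈ c, (A S).Nonempty) :
    ∃ U : Ultrafilter β, ∀ S ∈ c, A S ∈ U := by
  have : Nonempty c := hne.to_subtype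
  have hdir : Directed (· ≥ ·) (fun S : c => (𝓟 (A S) : Filter β)) := by
    intro S T
    rcases hc.total S.2 T.2 with h | h
    · exact ⟨S, le_rfl, principal_mono.2 (hA h)⟩
    · exact ⟨T, principal_mono.2 (hA h), le_rfl⟩
  have : (⨅ S : c, (𝓟 (A S) : Filter β)).NeBot :=
    iInf_neBot_of_directed' hdir fun S => principal_neBot_iff.2 (hAne S S.2)
  obtain ⟨U, hU⟩ := Ultrafilter.exists_le (⨅ S : c, (𝓟 (A S) : Filter β))
  refine ⟨U, fun S hS => ?_⟩
  exact le_principal_iff.1 (hU.trans (iInf_le (fun S : c => (𝓟 (A S) : Filter β)) ⟨S, hS⟩))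

theorem chain_inter (hX : Refl X) (c : Set (Set X)) (hc : IsChain (· ⊆ ·) c)
    (hne : c.Nonempty) (r : ℝ) (hb : ∀ S ∈ c, ∀ x ∈ S, ‖x‖ ≤ r)
    (h : ∀ S ∈ c, S.Nonempty ∧ IsClosed S ∧ Convex ℝ S) : ∃ z, ∀ S ∈ c, z ∈ S := by
  obtain ⟨U, hU⟩ := exists_ultra_of_chain c hc hne id monotone_id fun S hS => (h S hS).1
  obtain ⟨S0, hS0⟩ := hne
  obtain ⟨z, hz⟩ := exists_wlim hX U id r (mem_of_superset (hU S0 hS0) (hb S0 hS0))
  exact ⟨z, fun S hS => hz.mem (h S hS).2.1 (h S hS).2.2 (hU S hS)⟩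

theorem exists_max (hX : Refl X) {C : Set X} (hne : C.Nonempty) (hcl : IsClosed C)
    (hcv : Convex ℝ C) (r : ℝ) (hb : ∀ x ∈ C, ‖x‖ ≤ r) (ξ : StrongDual ℝ X) :
    ∃ z ∈ C, ∀ w ∈ C, ξ w ≤ ξ z := by
  let A : X → Set X := fun w => C ∩ {z | ξ w ≤ ξ z}
  have hch : IsChain (· ⊆ ·) (A '' C) := by
    rintro _ ⟨w, -, rfl⟩ _ ⟨v, -, rfl⟩ -
    rcases le_total (ξ w) (ξ v) with h | h
    · exact Or.inr fun z hz => ⟨hz.1, h.trans hz.2⟩
    · exact Or.inl fun z hz => ⟨hz.1, h.trans hz.2⟩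
  obtain ⟨z, hz⟩ := chain_inter hX (A '' C) hch (hne.image A) r
    (by rintro _ ⟨w, -, rfl⟩ x hx; exact hb x hx.1)
    (by
      rintro _ ⟨w, hw, rfl⟩
      refine ⟨⟨w, hw, le_refl (ξ w)⟩, hcl.inter (isClosed_le continuous_const ξ.continuous), ?_⟩
      exact hcv.inter (convex_halfSpace_ge ξ.toLinearMap.isLinear _))
  obtain ⟨w0, hw0⟩ := hne
  exact ⟨z, (hz _ ⟨w0, hw0, rfl⟩).1, fun w hw => (hz _ ⟨w, hw, rfl⟩).2⟩

/-- Dentability of separable weakly compact convex sets. -/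
theorem dent (hX : Refl X) {C : Set X} (hne : C.Nonempty) (hcl : IsClosed C)
    (hcv : Convex ℝ C) (r : ℝ) (hb : ∀ x ∈ C, ‖x‖ ≤ r) (hsep : TopologicalSpace.IsSeparable C)
    {δ : ℝ} (hδ : 0 < δ) :
    ∃ (ξ : StrongDual ℝ X) (m : ℝ) (x : X), (∃ z ∈ C, m < ξ z) ∧
      ∀ z ∈ C, m < ξ z → ‖z - x‖ ≤ δ := by
  obtain ⟨c, hcc, hCc⟩ := hsep
  have : Countable c := hcc.to_subtype
  have hr : 0 ≤ r := by
    obtain ⟨w, hw⟩ := hne
    exact (norm_nonneg w).trans (hb w hw)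
  let A : c → Set (StrongDual ℝ X) := fun x =>
    {ξ | ∀ w ∈ C, ∀ η > 0, ∃ z ∈ C, ‖z - x‖ ≤ δ / 2 ∧ ξ w ≤ ξ z + η}
  have hA : ∀ x, IsClosed (A x) := by
    intro x
    refine isClosed_of_closure_subset fun ξ hξ w hw η hη => ?_
    have hpos : 0 < η / (4 * (r + 1)) := by positivity
    obtain ⟨ξ', hξ', hd⟩ := Metric.mem_closure_iff.1 hξ _ hpos
    obtain ⟨z, hz, hzx, hle⟩ := hξ' w hw (η / 2) (by positivity)
    refine ⟨z, hz, hzx, ?_⟩
    have h1 : (ξ - ξ') (w - z) ≤ ‖ξ - ξ'‖ * ‖w - z‖ :=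
      (le_abs_self _).trans ((ξ - ξ').le_opNorm _)
    have h2 : ‖w - z‖ ≤ 2 * (r + 1) := by
      have := norm_sub_le w z
      linarith [hb w hw, hb z hz]
    rw [dist_eq_norm] at hd
    have h3 : ‖ξ - ξ'‖ * ‖w - z‖ ≤ η / (4 * (r + 1)) * (2 * (r + 1)) :=
      mul_le_mul hd.le h2 (norm_nonneg _) hpos.le
    have h4 : η / (4 * (r + 1)) * (2 * (r + 1)) = η / 2 := by field_simp; ring
    simp only [sub_apply, map_sub] at h1
    linarith
  have hU : ⋃ x, A x = univ := by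
    refine eq_univ_of_forall fun ξ => ?_
    obtain ⟨z, hz, hmax⟩ := exists_max hX hne hcl hcv r hb ξ
    obtain ⟨x, hx, hd⟩ := Metric.mem_closure_iff.1 (hCc hz) (δ / 2) (by positivity)
    refine mem_iUnion.2 ⟨⟨x, hx⟩, fun w hw η hη => ⟨z, hz, ?_, ?_⟩⟩
    · rw [dist_eq_norm] at hd
      exact hd.le
    · linarith [hmax w hw]
  obtain ⟨x, ξ0, hξ0⟩ := nonempty_interior_of_iUnion_of_closed hA hU
  obtain ⟨ρ, hρ, hball⟩ := Metric.mem_nhds_iff.1 (mem_interior_iff_mem_nhds.1 hξ0)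
  obtain ⟨z0, hz0, hmax⟩ := exists_max hX hne hcl hcv r hb ξ0
  refine ⟨ξ0, ξ0 z0 - ρ / 2 * (δ / 4), x, ⟨z0, hz0, ?_⟩, fun z hz hm => ?_⟩
  · have : 0 < ρ / 2 * (δ / 4) := by positivity
    linarith
  · obtain ⟨ψ, hψ, hψz⟩ := exists_dual_vector'' ℝ (z - x)
    have hmem : ξ0 + (ρ / 2) • ψ ∈ A x := by
      apply hball
      rw [Metric.mem_ball, dist_eq_norm, add_sub_cancel_left, norm_smul, Real.norm_eq_abs,
        abs_of_pos (by positivity)]
      nlinarith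
    obtain ⟨z', hz', hzx, hle⟩ := hmem z hz (ρ / 2 * (δ / 4)) (by positivity)
    simp only [add_apply, smul_apply, smul_eq_mul] at hle
    have h1 := hmax z' hz'
    have h2 : ψ z - ψ z' ≤ δ / 2 := by
      have : ρ / 2 * (ψ z - ψ z') ≤ ρ / 2 * (δ / 2) := by linarith
      exact le_of_mul_le_mul_left this (by positivity)
    have h3 : ψ (z' - x) ≤ δ / 2 := by
      have := (le_abs_self _).trans (ψ.le_opNorm (z' - x))
      nlinarith [norm_nonneg (z' - (x : X))]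
    simp only [map_sub, RCLike.ofReal_real_eq_id, id] at hψz h3
    linarith

theorem exists_total {W : Set X} (hsep : TopologicalSpace.IsSeparable W) :
    ∃ ξ : ℕ → StrongDual ℝ X, ∀ N ∈ W, (∀ i, ξ i N = 0) → N = 0 := by
  obtain ⟨c, hcc, hWc⟩ := hsep
  obtain ⟨f, hf⟩ := (hcc.insert 0).exists_eq_range (insert_nonempty _ _)
  choose ξ hξ hξf using fun i => exists_dual_vector'' ℝ (f i)
  refine ⟨ξ, fun N hN h0 => ?_⟩
  by_contra hne
  have hpos : 0 < ‖N‖ := norm_pos_iff.2 hne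
  obtain ⟨x, hx, hd⟩ := Metric.mem_closure_iff.1 (hWc hN) (‖N‖ / 2) (by positivity)
  have hx' : x ∈ range f := hf ▸ mem_insert_of_mem _ hx
  obtain ⟨i, rfl⟩ := hx'
  rw [dist_comm, dist_eq_norm] at hd
  have h1 : ξ i (f i - N) ≤ ‖f i - N‖ := by
    have := (le_abs_self _).trans ((ξ i).le_opNorm (f i - N))
    nlinarith [norm_nonneg (f i - N), hξ i]
  have h2 := hξf i
  simp only [RCLike.ofReal_real_eq_id, id] at h2
  rw [map_sub, h0 i, h2] at h1
  have h3 : ‖N‖ ≤ ‖f i‖ + ‖f i - N‖ := by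
    have := norm_sub_le (f i) (f i - N)
    simpa using this
  linarith

/-- Fragmentation of weak-star compact sets of functionals against weakly small vectors. -/
theorem frag (hX : Refl X) {W : Set X} (hcl : IsClosed W) (hcv : Convex ℝ W) (r : ℝ)
    (hb : ∀ x ∈ W, ‖x‖ ≤ r) (hsep : TopologicalSpace.IsSeparable W)
    {Z : Set (WeakDual ℝ X)} (hZ : IsCompact Z) (hne : Z.Nonempty) {c : ℝ} (hc : 0 < c) :
    ∃ V : Set (WeakDual ℝ X), IsOpen V ∧ (V ∩ Z).Nonempty ∧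
      ∃ (F : Finset (StrongDual ℝ X)) (γ : ℝ), 0 < γ ∧
        ∀ N ∈ W, (∀ ξ ∈ F, |ξ N| ≤ γ) → ∀ ζ ∈ V ∩ Z, ζ N ≤ c := by
  classical
  by_contra hcon
  obtain ⟨ξ, hξ⟩ := exists_total hsep
  have key : ∀ (V : {V : Set (WeakDual ℝ X) // IsOpen V ∧ (V ∩ Z).Nonempty}) (k : ℕ),
      ∃ N ∈ W, (∀ i < k, |ξ i N| ≤ 1 / ((k : ℝ) + 1)) ∧ ∃ ζ ∈ V.1 ∩ Z, c < ζ N := by
    intro V k
    by_contra h
    apply hcon
    refine ⟨V.1, V.2.1, V.2.2, (Finset.range k).image ξ, 1 / ((k : ℝ) + 1), by positivity,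
      fun N hN hF ζ hζ => ?_⟩
    by_contra hlt
    exact h ⟨N, hN, fun i hi => hF _ (Finset.mem_image_of_mem _ (Finset.mem_range.2 hi)),
      ζ, hζ, not_le.1 hlt⟩
  choose Nf hNW hNs ζf hζf hζc using key
  let V : ℕ → {V : Set (WeakDual ℝ X) // IsOpen V ∧ (V ∩ Z).Nonempty} := fun k =>
    Nat.rec ⟨univ, isOpen_univ, by simpa using hne⟩
      (fun k V => ⟨V.1 ∩ {ζ | c < ζ (Nf V k)},
        V.2.1.inter (isOpen_lt continuous_const (WeakDual.eval_continuous _)),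
        ⟨ζf V k, ⟨(hζf V k).1, hζc V k⟩, (hζf V k).2⟩⟩) k
  have hV : ∀ k, (V (k + 1)).1 = (V k).1 ∩ {ζ | c < ζ (Nf (V k) k)} := fun k => rfl
  have hanti : Antitone fun k => (V k).1 :=
    antitone_nat_of_succ_le fun k => by rw [hV]; exact inter_subset_left
  let U : Ultrafilter ℕ := hyperfilter ℕ
  have hUat : (U : Filter ℕ) ≤ atTop := Nat.hyperfilter_le_atTop
  let ζs : ℕ → WeakDual ℝ X := fun k => ζf (V k) k
  obtain ⟨ζ, -, hζ⟩ := hZ.ultrafilter_le_nhds (U.map ζs)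
    (by
      rw [le_principal_iff, Ultrafilter.coe_map, mem_map]
      exact univ_mem' fun k => (hζf (V k) k).2)
  have hζt : Tendsto ζs (U : Filter ℕ) (𝓝 ζ) := hζ
  have hge : ∀ j, c ≤ ζ (Nf (V j) j) := by
    intro j
    have h2 := ((WeakDual.eval_continuous (𝕜 := ℝ) (E := X) (Nf (V j) j)).tendsto ζ).comp hζt
    refine ge_of_tendsto h2 ?_
    filter_upwards [hUat (eventually_ge_atTop (j + 1))] with k hk
    have : ζs k ∈ (V (j + 1)).1 := hanti hk (hζf (V k) k).1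
    rw [hV] at this
    exact le_of_lt this.2
  obtain ⟨N, hN⟩ := exists_wlim hX U (fun j => Nf (V j) j) r
    (Eventually.of_forall fun j => hb _ (hNW _ _))
  have hNW' : N ∈ W := hN.mem hcl hcv (Eventually.of_forall fun j => hNW _ _)
  have hN0 : N = 0 := by
    refine hξ N hNW' fun i => ?_
    have h1 : Tendsto (fun j => ξ i (Nf (V j) j)) atTop (𝓝 0) := by
      refine squeeze_zero_norm' ?_ tendsto_one_div_add_atTop_nhds_zero_nat
      filter_upwards [eventually_gt_atTop i] with j hj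
      exact hNs (V j) j i hj
    exact tendsto_nhds_unique (hN (ξ i)) (h1.mono_left hUat)
  have h3 : c ≤ (WeakDual.toStrongDual ζ) N :=
    ge_of_tendsto (hN (WeakDual.toStrongDual ζ)) (Eventually.of_forall hge)
  rw [hN0, map_zero] at h3
  linarith

end Vale.Agent.P079
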